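import Vale.Agent.P088.H198.Defs

/-!
# P088, row NEU: Neumann series in weighted `ℓ¹`
-/

open scoped ENNReal NNReal
open Vale.Agent.P088.LR

noncomputable section

namespace Vale.Agent.P088.H102

variable {n d : ℕ}

/-- Weighted `ℓ¹` norm with values in `[0, ∞]`. -/
def An (W : Ix n → ℝ≥0∞) (u : Ix n → Fin d → ℂ) : ℝ≥0∞ := ∑' k, W k * ∑ i, ‖u k i‖ₑ

/-- The operator with matrix `M`. -/
def Tm (M : Ix n → Ix n → Fin d → Fin d → ℂ) (u : Ix n → Fin d → ℂ) (k : Ix n) (i : Fin d) : ℂ :=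
  ∑' l, ∑ j, M k l i j * u l j

/-- The kernel `M` is dominated by `Γ (k - l)`. -/
def Dm (M : Ix n → Ix n → Fin d → Fin d → ℂ) (Γ : Ix n → ℝ≥0∞) : Prop :=
  ∀ k l j, ∑ i, ‖M k l i j‖ₑ ≤ Γ (k - l)

theorem sum_enorm_le {M : Ix n → Ix n → Fin d → Fin d → ℂ} {Γ : Ix n → ℝ≥0∞} (hM : Dm M Γ)
    (u : Ix n → Fin d → ℂ) (k l : Ix n) :
    ∑ i, ∑ j, ‖M k l i j‖ₑ * ‖u l j‖ₑ ≤ Γ (k - l) * ∑ j, ‖u l j‖ₑ := by
  rw [Finset.sum_comm, Finset.mul_sum]
  refine Finset.sum_le_sum fun j _ => ?_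
  rw [← Finset.sum_mul]
  gcongr
  exact hM k l j

theorem sum_Tm_le {M : Ix n → Ix n → Fin d → Fin d → ℂ} {Γ : Ix n → ℝ≥0∞} (hM : Dm M Γ)
    (u : Ix n → Fin d → ℂ) (k : Ix n) :
    ∑ i, ‖Tm M u k i‖ₑ ≤ ∑' l, Γ (k - l) * ∑ j, ‖u l j‖ₑ := by
  calc ∑ i, ‖Tm M u k i‖ₑ ≤ ∑ i, ∑' l, ∑ j, ‖M k l i j‖ₑ * ‖u l j‖ₑ := by
        refine Finset.sum_le_sum fun i _ => ?_
        refine enorm_tsum_le_tsum_enorm.trans (ENNReal.tsum_le_tsum fun l => ?_)
        refine (enorm_sum_le _ _).trans (Finset.sum_le_sum fun j _ => ?_)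
        rw [enorm_mul]
    _ = ∑' l, ∑ i, ∑ j, ‖M k l i j‖ₑ * ‖u l j‖ₑ := by
        rw [Summable.tsum_finsetSum fun _ _ => ENNReal.summable]
    _ ≤ _ := ENNReal.tsum_le_tsum fun l => sum_enorm_le hM u k l

theorem An_Tm_le {M : Ix n → Ix n → Fin d → Fin d → ℂ} {Γ : Ix n → ℝ≥0∞} (hM : Dm M Γ)
    {W : Ix n → ℝ≥0∞} (hW : ∀ k l, W (k + l) ≤ W k * W l) (u : Ix n → Fin d → ℂ) :
    An W (Tm M u) ≤ (∑' k, W k * Γ k) * An W u := by
  calc An W (Tm M u) ≤ ∑' k, W k * ∑' l, Γ (k - l) * ∑ j, ‖u l j‖ₑ :=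
        ENNReal.tsum_le_tsum fun k => by gcongr; exact sum_Tm_le hM u k
    _ ≤ ∑' k, ∑' l, (W (k - l) * Γ (k - l)) * (W l * ∑ j, ‖u l j‖ₑ) := by
        refine ENNReal.tsum_le_tsum fun k => ?_
        rw [← ENNReal.tsum_mul_left]
        refine ENNReal.tsum_le_tsum fun l => ?_
        have h : W k ≤ W (k - l) * W l := by simpa using hW (k - l) l
        calc W k * (Γ (k - l) * ∑ j, ‖u l j‖ₑ) ≤ (W (k - l) * W l) * (Γ (k - l) * ∑ j, ‖u l j‖ₑ) := by
              gcongr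
          _ = _ := by ring
    _ = ∑' l, ∑' k, (W (k - l) * Γ (k - l)) * (W l * ∑ j, ‖u l j‖ₑ) := ENNReal.tsum_comm
    _ = ∑' l, (∑' k, W k * Γ k) * (W l * ∑ j, ‖u l j‖ₑ) := by
        refine tsum_congr fun l => ?_
        rw [ENNReal.tsum_mul_right]
        congr 1
        exact (Equiv.subRight l).tsum_eq fun k => W k * Γ k
    _ = _ := by rw [ENNReal.tsum_mul_left, An]

/-- The iterates. -/
def vr (M : Ix n → Ix n → Fin d → Fin d → ℂ) (b : Ix n → Fin d → ℂ) : ℕ → Ix n → Fin d → ℂ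
  | 0 => b
  | r + 1 => Tm M (vr M b r)

theorem An_vr_le {M : Ix n → Ix n → Fin d → Fin d → ℂ} {Γ : Ix n → ℝ≥0∞} (hM : Dm M Γ)
    {W : Ix n → ℝ≥0∞} (hW : ∀ k l, W (k + l) ≤ W k * W l) (b : Ix n → Fin d → ℂ) (r : ℕ) :
    An W (vr M b r) ≤ (∑' k, W k * Γ k) ^ r * An W b := by
  induction r with
  | zero => simp [vr]
  | succ r ih =>
    calc An W (vr M b (r + 1)) ≤ (∑' k, W k * Γ k) * An W (vr M b r) := An_Tm_le hM hW _
      _ ≤ (∑' k, W k * Γ k) * ((∑' k, W k * Γ k) ^ r * An W b) := by gcongr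
      _ = _ := by rw [pow_succ]; ring

/-- The solution. -/
def sol (M : Ix n → Ix n → Fin d → Fin d → ℂ) (b : Ix n → Fin d → ℂ) (k : Ix n) (i : Fin d) : ℂ :=
  ∑' r, vr M b r k i

theorem tsum_An_vr_le {M : Ix n → Ix n → Fin d → Fin d → ℂ} {Γ : Ix n → ℝ≥0∞} (hM : Dm M Γ)
    {W : Ix n → ℝ≥0∞} (hW : ∀ k l, W (k + l) ≤ W k * W l) (b : Ix n → Fin d → ℂ) :
    ∑' r, An W (vr M b r) ≤ (1 - ∑' k, W k * Γ k)⁻¹ * An W b := by
  calc ∑' r, An W (vr M b r) ≤ ∑' r, (∑' k, W k * Γ k) ^ r * An W b :=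
        ENNReal.tsum_le_tsum fun r => An_vr_le hM hW b r
    _ = _ := by rw [ENNReal.tsum_mul_right, ENNReal.tsum_geometric]

theorem An_sol_le {M : Ix n → Ix n → Fin d → Fin d → ℂ} {Γ : Ix n → ℝ≥0∞} (hM : Dm M Γ)
    {W : Ix n → ℝ≥0∞} (hW : ∀ k l, W (k + l) ≤ W k * W l) (b : Ix n → Fin d → ℂ) :
    An W (sol M b) ≤ (1 - ∑' k, W k * Γ k)⁻¹ * An W b := by
  refine le_trans ?_ (tsum_An_vr_le hM hW b)
  calc An W (sol M b) ≤ ∑' k, W k * ∑ i, ∑' r, ‖vr M b r k i‖ₑ :=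
        ENNReal.tsum_le_tsum fun k => by
          gcongr with i
          exact enorm_tsum_le_tsum_enorm
    _ = ∑' k, ∑' r, W k * ∑ i, ‖vr M b r k i‖ₑ := by
        refine tsum_congr fun k => ?_
        rw [ENNReal.tsum_mul_left, Summable.tsum_finsetSum fun _ _ => ENNReal.summable]
    _ = ∑' r, An W (vr M b r) := ENNReal.tsum_comm

theorem tsum_vr_ne_top {M : Ix n → Ix n → Fin d → Fin d → ℂ} {Γ : Ix n → ℝ≥0∞} (hM : Dm M Γ)
    (hΓ : ∑' k, Γ k < 1) {b : Ix n → Fin d → ℂ} (hb : An 1 b ≠ ∞) :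
    ∑' r, ∑' l, ∑ j, ‖vr M b r l j‖ₑ ≠ ∞ := by
  have h := tsum_An_vr_le hM (W := 1) (fun _ _ => by simp) b
  have h1 : ∑' r, ∑' l, ∑ j, ‖vr M b r l j‖ₑ = ∑' r, An 1 (vr M b r) := by
    simp [An]
  rw [h1]
  refine ne_top_of_le_ne_top ?_ h
  refine ENNReal.mul_ne_top ?_ hb
  simp only [Pi.one_apply, one_mul]
  exact ENNReal.inv_ne_top.2 (tsub_pos_of_lt hΓ).ne'

theorem sol_eq {M : Ix n → Ix n → Fin d → Fin d → ℂ} {Γ : Ix n → ℝ≥0∞} (hM : Dm M Γ)
    (hΓ : ∑' k, Γ k < 1) {b : Ix n → Fin d → ℂ} (hb : An 1 b ≠ ∞) (k : Ix n) (i : Fin d) :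
    sol M b k i = b k i + ∑' l, ∑ j, M k l i j * sol M b l j := by
  have hfin := tsum_vr_ne_top hM hΓ hb
  -- summability in `r`
  have hs : ∀ l j, Summable fun r => vr M b r l j := fun l j => by
    refine Summable.of_enorm (ne_top_of_le_ne_top hfin ?_)
    refine ENNReal.tsum_le_tsum fun r => ?_
    calc ‖vr M b r l j‖ₑ ≤ ∑ j, ‖vr M b r l j‖ₑ :=
          Finset.single_le_sum (f := fun j => ‖vr M b r l j‖ₑ) (fun _ _ => bot_le)
            (Finset.mem_univ j)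
      _ ≤ _ := ENNReal.le_tsum l
  have hsum : Summable (Function.uncurry fun (r : ℕ) (l : Ix n) => ∑ j, M k l i j * vr M b r l j) := by
    refine Summable.of_enorm ?_
    have h2 : ∑' p : ℕ × Ix n, ‖Function.uncurry (fun (r : ℕ) (l : Ix n) =>
        ∑ j, M k l i j * vr M b r l j) p‖ₑ ≤ ∑' r, ∑' l, (∑' m, Γ m) * ∑ j, ‖vr M b r l j‖ₑ := by
      rw [ENNReal.tsum_prod']
      refine ENNReal.tsum_le_tsum fun r => ENNReal.tsum_le_tsum fun l => ?_
      simp only [Function.uncurry_apply_pair]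
      calc ‖∑ j, M k l i j * vr M b r l j‖ₑ ≤ ∑ j, ‖M k l i j‖ₑ * ‖vr M b r l j‖ₑ := by
            refine (enorm_sum_le _ _).trans (Finset.sum_le_sum fun j _ => ?_)
            rw [enorm_mul]
        _ ≤ ∑ i, ∑ j, ‖M k l i j‖ₑ * ‖vr M b r l j‖ₑ :=
            Finset.single_le_sum (f := fun i => ∑ j, ‖M k l i j‖ₑ * ‖vr M b r l j‖ₑ)
              (fun _ _ => bot_le) (Finset.mem_univ i)
        _ ≤ Γ (k - l) * ∑ j, ‖vr M b r l j‖ₑ := sum_enorm_le hM _ k l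
        _ ≤ _ := by gcongr; exact ENNReal.le_tsum _
    refine ne_top_of_le_ne_top ?_ h2
    simp only [ENNReal.tsum_mul_left]
    exact ENNReal.mul_ne_top (hΓ.trans ENNReal.one_lt_top).ne hfin
  calc sol M b k i = vr M b 0 k i + ∑' r, vr M b (r + 1) k i := (hs k i).tsum_eq_zero_add
    _ = b k i + ∑' r, ∑' l, ∑ j, M k l i j * vr M b r l j := rfl
    _ = b k i + ∑' l, ∑' r, ∑ j, M k l i j * vr M b r l j := by rw [hsum.tsum_comm]
    _ = _ := by
        congr 1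
        refine tsum_congr fun l => ?_
        rw [Summable.tsum_finsetSum fun j _ => (hs l j).mul_left _]
        refine Finset.sum_congr rfl fun j _ => ?_
        rw [tsum_mul_left, sol]

theorem one_le_wt (k : Ix n) : 1 ≤ wt k := by
  have : 0 ≤ ∑ j, |(k j : ℝ)| := Finset.sum_nonneg fun _ _ => abs_nonneg _
  simp only [wt]; linarith

theorem wt_add_le (k l : Ix n) : wt (k + l) ≤ wt k + wt l - 1 := by
  have : ∑ j, |((k + l) j : ℝ)| ≤ ∑ j, |(k j : ℝ)| + ∑ j, |(l j : ℝ)| := by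
    rw [← Finset.sum_add_distrib]
    refine Finset.sum_le_sum fun j _ => ?_
    simp only [Pi.add_apply, Int.cast_add]
    exact abs_add_le _ _
  simp only [wt]; linarith

theorem wt_add_mul_le (δ : ℝ) (hδ : 0 ≤ δ) (k l : Ix n) :
    1 + δ * (wt (k + l) - 1) ≤ (1 + δ * (wt k - 1)) * (1 + δ * (wt l - 1)) := by
  have h := wt_add_le k l
  have h1 := one_le_wt k
  have h2 := one_le_wt l
  have h3 : δ * (wt (k + l) - 1) ≤ δ * (wt k + wt l - 2) :=
    mul_le_mul_of_nonneg_left (by linarith) hδ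
  have h4 : 0 ≤ (δ * (wt k - 1)) * (δ * (wt l - 1)) := by
    have := sub_nonneg.2 h1
    have := sub_nonneg.2 h2
    positivity
  nlinarith

/-- The weight `(1 + δ |k|)^m`. -/
def wd (δ : ℝ) (m : ℕ) (k : Ix n) : ℝ≥0∞ := ENNReal.ofReal ((1 + δ * (wt k - 1)) ^ m)

theorem wd_base_nonneg {δ : ℝ} (hδ : 0 ≤ δ) (k : Ix n) : 1 ≤ 1 + δ * (wt k - 1) := by
  have := mul_nonneg hδ (sub_nonneg.2 (one_le_wt k))
  linarith

theorem wd_add_le {δ : ℝ} (hδ : 0 ≤ δ) (m : ℕ) (k l : Ix n) :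
    wd δ m (k + l) ≤ wd δ m k * wd δ m l := by
  rw [wd, wd, wd, ← ENNReal.ofReal_mul (by have := wd_base_nonneg hδ k; positivity), ← mul_pow]
  refine ENNReal.ofReal_le_ofReal (pow_le_pow_left₀ ?_ (wt_add_mul_le δ hδ k l) m)
  have := wd_base_nonneg hδ (k + l)
  linarith

theorem conv_bd {δ x : ℝ} (hδ : 0 ≤ δ) (hδ1 : δ ≤ 1) (hx : 1 ≤ x) (m : ℕ) :
    (1 + δ * (x - 1)) ^ m ≤ 1 + δ * x ^ m := by
  have key : (1 + δ * (x - 1)) ^ m ≤ 1 + δ * (x ^ m - 1) := by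
    induction m with
    | zero => simp
    | succ m ih =>
      have hA : 1 ≤ x ^ m := one_le_pow₀ hx
      have h0 : 0 ≤ 1 + δ * (x - 1) := by nlinarith
      calc (1 + δ * (x - 1)) ^ (m + 1) = (1 + δ * (x - 1)) ^ m * (1 + δ * (x - 1)) := pow_succ _ _
        _ ≤ (1 + δ * (x ^ m - 1)) * (1 + δ * (x - 1)) := by gcongr
        _ ≤ 1 + δ * (x ^ (m + 1) - 1) := by
            have h1 : 0 ≤ δ * ((x - 1) * (x ^ m - 1) * (1 - δ)) := by
              have := sub_nonneg.2 hA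
              have := sub_nonneg.2 hx
              have := sub_nonneg.2 hδ1
              positivity
            rw [pow_succ]
            nlinarith
  linarith

theorem wd_one_mul_enorm (m : ℕ) (k : Ix n) (z : ℂ) :
    wd 1 m k * ‖z‖ₑ = ENNReal.ofReal (wt k ^ m * ‖z‖) := by
  rw [ENNReal.ofReal_mul (by have := one_le_wt k; positivity), ofReal_norm, wd]
  congr 3
  ring

theorem An_eq {m : ℕ} {u : Ix n → Fin d → ℂ} (hu : ∀ i, Summable fun k => wt k ^ m * ‖u k i‖) :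
    An (wd 1 m) u = ENNReal.ofReal (∑ i, nm m fun k => u k i) := by
  have hp : ∀ (k : Ix n) (i : Fin d), 0 ≤ wt k ^ m * ‖u k i‖ := fun k i => by
    have := one_le_wt k
    positivity
  have hp' : ∀ i, 0 ≤ nm m fun k => u k i := fun i => tsum_nonneg fun k => hp k i
  rw [ENNReal.ofReal_sum_of_nonneg fun i _ => hp' i]
  have h : ∀ i, ENNReal.ofReal (nm m fun k => u k i) = ∑' k, wd 1 m k * ‖u k i‖ₑ := fun i => by
    rw [nm, ENNReal.ofReal_tsum_of_nonneg (fun k => hp k i) (hu i)]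
    exact tsum_congr fun k => (wd_one_mul_enorm m k _).symm
  simp only [h, An, Finset.mul_sum]
  rw [Summable.tsum_finsetSum fun _ _ => ENNReal.summable]

theorem summable_of_An {m : ℕ} {u : Ix n → Fin d → ℂ} (hu : An (wd 1 m) u ≠ ∞) (i : Fin d) :
    Summable fun k => wt k ^ m * ‖u k i‖ := by
  refine Summable.of_enorm (ne_top_of_le_ne_top hu (ENNReal.tsum_le_tsum fun k => ?_))
  have hp : 0 ≤ wt k ^ m * ‖u k i‖ := by
    have := one_le_wt k
    positivity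
  rw [Real.enorm_eq_ofReal hp, ← wd_one_mul_enorm]
  gcongr
  exact Finset.single_le_sum (f := fun i => ‖u k i‖ₑ) (fun _ _ => bot_le) (Finset.mem_univ i)

theorem An_mono {W W' : Ix n → ℝ≥0∞} (c : ℝ≥0∞) (h : ∀ k, W k ≤ c * W' k)
    (u : Ix n → Fin d → ℂ) : An W u ≤ c * An W' u := by
  rw [An, An, ← ENNReal.tsum_mul_left]
  refine ENNReal.tsum_le_tsum fun k => ?_
  rw [← mul_assoc]
  gcongr
  exact h k

theorem neu : RowNEU := by
  intro n d M γ b hγ hγ0 hM hb m₀ hm₀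
  set Γ : Ix n → ℝ≥0∞ := fun k => ENNReal.ofReal (γ k) with hΓ
  have hD : Dm M Γ := fun k l j => by
    simp only [← ofReal_norm]
    rw [← ENNReal.ofReal_sum_of_nonneg fun _ _ => norm_nonneg _]
    exact ENNReal.ofReal_le_ofReal (hM k l j)
  -- the sums `∑ (1 + δ |k|)^m γ`
  have hbase : ∀ (δ : ℝ) (k : Ix n), 0 ≤ δ → 0 ≤ 1 + δ * (wt k - 1) := fun δ k hδ =>
    zero_le_one.trans (wd_base_nonneg hδ k)
  have hS : ∀ (m : ℕ), ∑' k, wd 1 m k * Γ k = ENNReal.ofReal (∑' k, wt k ^ m * γ k) := fun m => by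
    rw [ENNReal.ofReal_tsum_of_nonneg (fun k => by have := one_le_wt k; have := hγ0 k; positivity)
      (hγ m)]
    refine tsum_congr fun k => ?_
    rw [wd, ← ENNReal.ofReal_mul (by have := hbase 1 k zero_le_one; positivity)]
    congr 2
    ring
  have hle : ∀ m ≤ m₀, ∑' k, wt k ^ m * γ k ≤ 1 / 2 := fun m hm => by
    refine le_trans (Summable.tsum_le_tsum (fun k => ?_) (hγ m) (hγ m₀)) hm₀
    have := hγ0 k
    gcongr
    exact one_le_wt k
  have hS0 : ∑' k, γ k ≤ 1 / 2 := by simpa using hle 0 (Nat.zero_le _)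
  have hsγ : Summable γ := by simpa using hγ 0
  have hΓ1 : ∑' k, Γ k < 1 := by
    rw [hΓ, ← ENNReal.ofReal_tsum_of_nonneg hγ0 hsγ, ← ENNReal.ofReal_one]
    exact (ENNReal.ofReal_lt_ofReal_iff zero_lt_one).2 (by linarith)
  have hAb : ∀ m, An (wd 1 m) b ≠ ∞ := fun m => by
    rw [An_eq fun i => hb i m]
    exact ENNReal.ofReal_ne_top
  have hb1 : An 1 b ≠ ∞ := by
    have h := hAb 0
    have e : (wd 1 0 : Ix n → ℝ≥0∞) = 1 := by
      funext k
      simp [wd]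
    rwa [e] at h
  -- rapid decrease
  have hRD : ∀ m, An (wd 1 m) (sol M b) ≠ ∞ := fun m => by
    set S := ∑' k, wt k ^ m * γ k with hSdef
    have hS0' : 0 ≤ S := tsum_nonneg fun k => by
      have := one_le_wt k
      have := hγ0 k
      positivity
    set δ : ℝ := 1 / (4 * (S + 1)) with hδ
    have hδ0 : 0 < δ := by positivity
    have hδ1 : δ ≤ 1 := by
      rw [hδ, div_le_one (by positivity)]
      linarith
    have hδS : δ * S ≤ 1 / 4 := by
      rw [hδ, div_mul_eq_mul_div, div_le_div_iff₀ (by positivity) (by positivity)]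
      linarith
    have hW : ∑' k, wd δ m k * Γ k < 1 := by
      have hle' : ∀ k, (1 + δ * (wt k - 1)) ^ m * γ k ≤ γ k + δ * (wt k ^ m * γ k) := fun k => by
        have := mul_le_mul_of_nonneg_right (conv_bd hδ0.le hδ1 (one_le_wt k) m) (hγ0 k)
        linarith
      have hnn : ∀ k, 0 ≤ (1 + δ * (wt k - 1)) ^ m * γ k := fun k => by
        have := hbase δ k hδ0.le
        have := hγ0 k
        positivity
      have hsum2 : Summable fun k => γ k + δ * (wt k ^ m * γ k) := hsγ.add ((hγ m).mul_left δ)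
      have hsum1 : Summable fun k => (1 + δ * (wt k - 1)) ^ m * γ k :=
        Summable.of_nonneg_of_le hnn hle' hsum2
      have h1 : ∑' k, wd δ m k * Γ k = ENNReal.ofReal (∑' k, (1 + δ * (wt k - 1)) ^ m * γ k) := by
        rw [ENNReal.ofReal_tsum_of_nonneg hnn hsum1]
        refine tsum_congr fun k => ?_
        rw [wd, ← ENNReal.ofReal_mul (by have := hbase δ k hδ0.le; positivity)]
      rw [h1, ← ENNReal.ofReal_one]
      refine (ENNReal.ofReal_lt_ofReal_iff zero_lt_one).2 ?_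
      calc ∑' k, (1 + δ * (wt k - 1)) ^ m * γ k ≤ ∑' k, (γ k + δ * (wt k ^ m * γ k)) :=
            Summable.tsum_le_tsum hle' hsum1 hsum2
        _ = ∑' k, γ k + δ * S := by
            rw [hsγ.tsum_add ((hγ m).mul_left δ), tsum_mul_left]
        _ < 1 := by linarith
    have h2 : An (wd δ m) (sol M b) ≠ ∞ := by
      refine ne_top_of_le_ne_top ?_ (An_sol_le hD (wd_add_le hδ0.le m) b)
      refine ENNReal.mul_ne_top (ENNReal.inv_ne_top.2 (tsub_pos_of_lt hW).ne') ?_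
      refine ne_top_of_le_ne_top (hAb m) ?_
      have := An_mono (W := wd δ m) (W' := wd 1 m) 1 (fun k => ?_) b
      · simpa using this
      · rw [one_mul, wd, wd]
        refine ENNReal.ofReal_le_ofReal (pow_le_pow_left₀ (hbase δ k hδ0.le) ?_ m)
        have := sub_nonneg.2 (one_le_wt k)
        nlinarith
    refine ne_top_of_le_ne_top (ENNReal.mul_ne_top ENNReal.ofReal_ne_top h2)
      (An_mono (ENNReal.ofReal ((δ⁻¹) ^ m)) (fun k => ?_) _)
    rw [wd, wd, ← ENNReal.ofReal_mul (by positivity), ← mul_pow]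
    refine ENNReal.ofReal_le_ofReal (pow_le_pow_left₀ (hbase 1 k zero_le_one) ?_ m)
    rw [inv_mul_eq_div, le_div_iff₀ hδ0]
    nlinarith [one_le_wt k]
  refine ⟨sol M b, fun i m => summable_of_An (hRD m) i, fun k i => sol_eq hD hΓ1 hb1 k i, ?_⟩
  intro m hm
  have h1 := An_sol_le hD (wd_add_le zero_le_one m) b (W := wd 1 m)
  rw [An_eq fun i => summable_of_An (hRD m) i, An_eq fun i => hb i m, hS] at h1
  have hnn : 0 ≤ ∑ i, nm m fun k => b k i := Finset.sum_nonneg fun i _ => tsum_nonneg fun k => by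
    have := one_le_wt k
    positivity
  have h2 : (1 - ENNReal.ofReal (∑' k, wt k ^ m * γ k))⁻¹ ≤ ENNReal.ofReal 2 := by
    have h3 : (ENNReal.ofReal 2)⁻¹ ≤ 1 - ENNReal.ofReal (∑' k, wt k ^ m * γ k) := by
      rw [← ENNReal.ofReal_inv_of_pos two_pos, ← ENNReal.ofReal_one, ← ENNReal.ofReal_sub _
        (tsum_nonneg fun k => by have := one_le_wt k; have := hγ0 k; positivity)]
      refine ENNReal.ofReal_le_ofReal ?_
      have := hle m hm
      norm_num at this ⊢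
      linarith
    exact ENNReal.inv_le_iff_inv_le.2 h3
  have h4 : ENNReal.ofReal (∑ i, nm m fun k => sol M b k i) ≤
      ENNReal.ofReal (2 * ∑ i, nm m fun k => b k i) := by
    rw [ENNReal.ofReal_mul zero_le_two]
    exact h1.trans (by gcongr)
  exact (ENNReal.ofReal_le_ofReal_iff (by positivity)).1 h4

end Vale.Agent.P088.H102
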